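import Vale.Agent.P161L.Final

open MeasureTheory

namespace Vale.Agent.Results.P161.SubcriticalFIID

open Vale.Agent.P161L

/-- For every `d ≥ 3`, every `d`-regular tree `G` (that is, `G = T_d`) and every `β ≥ 0` with
`tanh β < (d - 1) ^ (-1/2)`, the free Ising measure on `G` is a factor of IID. -/
theorem _root_.Vale.Agent.Results.P161.SubcriticalFIID.result {V : Type*} (G : SimpleGraph V)
    (d : ℕ) (hd : 3 ≤ d) (hG : G.IsTree) (hreg : ∀ v, (G.neighborSet v).ncard = d)
    (β : ℝ) (hβ : 0 ≤ β) (hθ : Real.tanh β < 1 / Real.sqrt ((d : ℝ) - 1))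
    (μ : Measure (V → Bool)) (hμ : IsFreeIsing G (Real.tanh β) μ) :
    IsFactorOfIID G μ := by
  have h0 : 0 ≤ Real.tanh β := by
    rw [Real.tanh_eq_sinh_div_cosh]
    exact div_nonneg (Real.sinh_nonneg_iff.2 hβ) (Real.cosh_pos β).le
  exact isFactorOfIID_of_subcritical hd hG hreg h0 hθ hμ

end Vale.Agent.Results.P161.SubcriticalFIID
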